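import Vale.Agent.H29.LT.Diag

/-!
P371, Task B helpers: diagonalisation, the value at zero momentum and the directional derivative.
-/

open Matrix
open scoped ComplexOrder

namespace Vale.LT.H29

open Polynomial

variable {N m : ℕ}

theorem exists_diag (g : Matrix (Fin N) (Fin N) ℂ) (a b : ℝ)
    (h1 : (g - ((a : ℝ) : ℂ) • (1 : Matrix (Fin N) (Fin N) ℂ)).PosSemidef)
    (h2 : (((b : ℝ) : ℂ) • (1 : Matrix (Fin N) (Fin N) ℂ) - g).PosSemidef) :
    ∃ (W : Matrix (Fin N) (Fin N) ℂ) (lam : Fin N → ℝ), W * Wᴴ = 1 ∧ Wᴴ * W = 1 ∧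
      g = W * (Matrix.diagonal fun i => (lam i : ℂ)) * Wᴴ ∧ ∀ i, lam i ∈ Set.Icc a b := by
  have hg : g.IsHermitian := by
    have e : g = (g - ((a : ℝ) : ℂ) • (1 : Matrix (Fin N) (Fin N) ℂ))
        + ((a : ℝ) : ℂ) • (1 : Matrix (Fin N) (Fin N) ℂ) := by abel
    rw [e]
    refine h1.isHermitian.add ?_
    unfold Matrix.IsHermitian
    rw [Matrix.conjTranspose_smul, Matrix.conjTranspose_one]
    simp
  set W : Matrix (Fin N) (Fin N) ℂ := (hg.eigenvectorUnitary : Matrix (Fin N) (Fin N) ℂ) with hW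
  have hWW : W * Wᴴ = 1 := Unitary.coe_mul_star_self hg.eigenvectorUnitary
  have hWW' : Wᴴ * W = 1 := Unitary.coe_star_mul_self hg.eigenvectorUnitary
  have hgd : g = W * (Matrix.diagonal fun i => (hg.eigenvalues i : ℂ)) * Wᴴ := by
    have := hg.spectral_theorem
    rw [Unitary.conjStarAlgAut_apply] at this
    exact this
  have hdg : Wᴴ * g * W = Matrix.diagonal fun i => (hg.eigenvalues i : ℂ) := by
    conv_lhs => rw [hgd]
    calc Wᴴ * (W * (Matrix.diagonal fun i => (hg.eigenvalues i : ℂ)) * Wᴴ) * W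
        = (Wᴴ * W) * (Matrix.diagonal fun i => (hg.eigenvalues i : ℂ)) * (Wᴴ * W) := by
          noncomm_ring
      _ = _ := by rw [hWW']; simp
  refine ⟨W, hg.eigenvalues, hWW, hWW', hgd, fun i => ⟨?_, ?_⟩⟩
  · have h := h1.conjTranspose_mul_mul_same W
    have e : Wᴴ * (g - ((a : ℝ) : ℂ) • (1 : Matrix (Fin N) (Fin N) ℂ)) * W
        = (Matrix.diagonal fun i => (hg.eigenvalues i : ℂ)) - ((a : ℝ) : ℂ) • 1 := by
      rw [Matrix.mul_sub, Matrix.sub_mul, hdg, Matrix.mul_smul, Matrix.mul_one, Matrix.smul_mul,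
        hWW']
    rw [e] at h
    have := h.diag_nonneg (i := i)
    rw [Matrix.sub_apply, Matrix.diagonal_apply_eq, Matrix.smul_apply, Matrix.one_apply_eq,
      smul_eq_mul, mul_one, sub_nonneg] at this
    exact_mod_cast this
  · have h := h2.conjTranspose_mul_mul_same W
    have e : Wᴴ * (((b : ℝ) : ℂ) • (1 : Matrix (Fin N) (Fin N) ℂ) - g) * W
        = ((b : ℝ) : ℂ) • 1 - (Matrix.diagonal fun i => (hg.eigenvalues i : ℂ)) := by
      rw [Matrix.mul_sub, Matrix.sub_mul, hdg, Matrix.mul_smul, Matrix.mul_one, Matrix.smul_mul,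
        hWW']
    rw [e] at h
    have := h.diag_nonneg (i := i)
    rw [Matrix.sub_apply, Matrix.diagonal_apply_eq, Matrix.smul_apply, Matrix.one_apply_eq,
      smul_eq_mul, mul_one, sub_nonneg] at this
    exact_mod_cast this

theorem PhiF_zero (F β c : ℝ[X]) (d : Fin N → ℝ) :
    PhiF F β c (Matrix.diagonal fun i => (d i : ℂ)) 0 = ∑ i, c.eval (d i) := by
  unfold PhiF
  simp only [Matrix.zero_mul, Matrix.mul_zero, Matrix.trace_zero, Complex.zero_re, mul_zero,
    Finset.sum_const_zero, zero_add, pow_diag]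
  simp only [Matrix.trace, Matrix.diag_apply, Matrix.diagonal_apply_eq, Complex.re_sum,
    Complex.ofReal_re]
  rw [swap1]
  refine Finset.sum_congr rfl fun i _ => ?_
  rw [eval_eq_sum, Polynomial.sum]

theorem c_bound (b δ η B0 : ℝ) (hδ : 0 < δ) (hη : 0 ≤ η) (hη1 : η ≤ 1)
    (hB0 : ∀ x ∈ Set.Icc δ (Real.pi / 2 - δ), |bt b x| ≤ B0)
    (β c : ℝ[X]) (hc : c.derivative = -β ^ 2) (hc0 : c.eval δ = 0)
    (hβ : ∀ x ∈ Set.Icc δ (Real.pi / 2 - δ), |β.eval x - bt b x| ≤ η)
    (s : ℝ) (hs : s ∈ Set.Icc δ (Real.pi / 2 - δ)) :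
    |c.eval s + (b ^ 2 / 4) * ((Real.tan s - s) - (Real.tan δ - δ))| ≤ η * ((2 * B0 + 1) * 2) := by
  have hcos : ∀ x ∈ Set.Icc δ (Real.pi / 2 - δ), 0 < Real.cos x := fun x hx =>
    (Real.cos_pos_of_mem_Ioo ⟨by linarith [hx.1, Real.pi_pos], by linarith [hx.2]⟩)
  have hB00 : 0 ≤ B0 := (abs_nonneg _).trans (hB0 s hs)
  have hle : δ ≤ Real.pi / 2 - δ := hs.1.trans hs.2
  have key : ‖(c.eval s + (b ^ 2 / 4) * (Real.tan s - s))
      - (c.eval δ + (b ^ 2 / 4) * (Real.tan δ - δ))‖ ≤ (η * (2 * B0 + 1)) * ‖s - δ‖ := by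
    refine Convex.norm_image_sub_le_of_norm_hasDerivWithin_le (s := Set.Icc δ (Real.pi / 2 - δ))
      (f := fun z => c.eval z + (b ^ 2 / 4) * (Real.tan z - z))
      (f' := fun z => c.derivative.eval z + (b ^ 2 / 4) * (1 / Real.cos z ^ 2 - 1))
      (fun z hz => ?_) (fun z hz => ?_) (convex_Icc _ _) ⟨le_refl δ, hle⟩ hs
    · exact ((c.hasDerivAt z).add (((Real.hasDerivAt_tan (hcos z hz).ne').sub
        (hasDerivAt_id z)).const_mul (b ^ 2 / 4))).hasDerivWithinAt
    · have e : c.derivative.eval z + (b ^ 2 / 4) * (1 / Real.cos z ^ 2 - 1)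
          = (bt b z - β.eval z) * (bt b z + β.eval z) := by
        rw [hc]
        simp only [eval_neg, eval_pow]
        have h1 : (b ^ 2 / 4) * (1 / Real.cos z ^ 2 - 1) = (bt b z) ^ 2 := by
          unfold bt
          have h2 := Real.sin_sq_add_cos_sq z
          have h3 := (hcos z hz).ne'
          have h4 : Real.sin z ^ 2 = 1 - Real.cos z ^ 2 := by linarith
          have h5 : (-(b / 2) * (Real.sin z / Real.cos z)) ^ 2
              = (b ^ 2 / 4) * (Real.sin z ^ 2 / Real.cos z ^ 2) := by ring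
          rw [h5, h4]
          field_simp
        rw [h1]; ring
      rw [e, Real.norm_eq_abs, abs_mul]
      have h1 : |bt b z - β.eval z| ≤ η := by rw [abs_sub_comm]; exact hβ z hz
      have h2 : |bt b z + β.eval z| ≤ 2 * B0 + 1 := by
        have : bt b z + β.eval z = 2 * bt b z + (β.eval z - bt b z) := by ring
        rw [this]
        refine (abs_add_le _ _).trans ?_
        rw [abs_mul, abs_two]
        linarith [hB0 z hz, hβ z hz]
      exact mul_le_mul h1 h2 (abs_nonneg _) hη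
  rw [hc0, Real.norm_eq_abs, Real.norm_eq_abs] at key
  have e : c.eval s + (b ^ 2 / 4) * ((Real.tan s - s) - (Real.tan δ - δ))
      = (c.eval s + (b ^ 2 / 4) * (Real.tan s - s)) - (0 + (b ^ 2 / 4) * (Real.tan δ - δ)) := by
    ring
  rw [e]
  refine key.trans ?_
  have h3 : |s - δ| ≤ 2 := by
    rw [abs_of_nonneg (by linarith [hs.1])]
    linarith [hs.2, Real.pi_le_four]
  calc η * (2 * B0 + 1) * |s - δ| ≤ η * (2 * B0 + 1) * 2 := by gcongr
    _ = _ := by ring

theorem fderiv_PhiF (F β c : ℝ[X]) (W : Matrix (Fin N) (Fin N) ℂ) (hW : W * Wᴴ = 1)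
    (hW' : Wᴴ * W = 1) (lam : Fin N → ℝ) (g P B P' B' : Matrix (Fin N) (Fin N) ℂ)
    (hg : g = W * (Matrix.diagonal fun i => (lam i : ℂ)) * Wᴴ) (hP : P = W * P' * Wᴴ)
    (hB : B = W * B' * Wᴴ) :
    fderiv ℝ (fun y : (Fin N → Fin N → ℂ) × (Fin N → Fin N → ℂ) =>
      PhiF F β c (Matrix.of y.1) (Matrix.of y.2)) ((fun i j => g i j), (fun i j => P i j))
        ((fun i j => P i j), (fun i j => B i j)) = DPhi F β c lam P' B' := by
  set y : (Fin N → Fin N → ℂ) × (Fin N → Fin N → ℂ) := ((fun i j => g i j), (fun i j => P i j))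
    with hy
  set v : (Fin N → Fin N → ℂ) × (Fin N → Fin N → ℂ) := ((fun i j => P i j), (fun i j => B i j))
    with hv
  have hdiff : DifferentiableAt ℝ (fun y : (Fin N → Fin N → ℂ) × (Fin N → Fin N → ℂ) =>
      PhiF F β c (Matrix.of y.1) (Matrix.of y.2)) (y + (0 : ℝ) • v) :=
    (contDiff_PhiF F β c).differentiable (by norm_num) _
  have hline : HasDerivAt (fun t : ℝ => y + t • v) v 0 := by
    have := ((hasDerivAt_id (0 : ℝ)).smul_const v).const_add y
    simpa using this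
  have h1 := hdiff.hasFDerivAt.comp_hasDerivAt (0 : ℝ) hline
  have h2 := hasDerivAt_PhiF F β c lam P' B'
  have h3 : ((fun y : (Fin N → Fin N → ℂ) × (Fin N → Fin N → ℂ) =>
      PhiF F β c (Matrix.of y.1) (Matrix.of y.2)) ∘ fun t : ℝ => y + t • v)
      = (fun t : ℝ => PhiF F β c ((Matrix.diagonal fun i => (lam i : ℂ)) + (t : ℂ) • P')
      (P' + (t : ℂ) • B')) := by
    funext t
    simp only [Function.comp]
    rw [← PhiF_conj F β c W Wᴴ ((Matrix.diagonal fun i => (lam i : ℂ)) + (t : ℂ) • P')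
      (P' + (t : ℂ) • B') hW' hW]
    congr 1
    · have : W * ((Matrix.diagonal fun i => (lam i : ℂ)) + (t : ℂ) • P') * Wᴴ
          = g + (t : ℂ) • P := by
        rw [hg, hP, Matrix.mul_add, Matrix.add_mul, Matrix.mul_smul, Matrix.smul_mul]
      rw [this]
      ext i j
      simp [hy, hv]
    · have : W * (P' + (t : ℂ) • B') * Wᴴ = P + (t : ℂ) • B := by
        rw [hP, hB, Matrix.mul_add, Matrix.add_mul, Matrix.mul_smul, Matrix.smul_mul]
      rw [this]
      ext i j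
      simp [hy, hv]
  rw [h3] at h1
  have h4 := h1.unique h2
  rw [zero_smul, add_zero] at h4
  exact h4

end Vale.LT.H29
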