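import Vale.Agent.H29.LT.Poly

/-!
P371, Task B helpers: the polynomial calibration and its directional derivative.
-/

open Matrix
open scoped ComplexOrder

namespace Vale.LT.H29

open Polynomial

variable {N : ℕ}

/-- iterates of the anticommutator with `g` applied to `P`. -/
def Zm (g P : Matrix (Fin N) (Fin N) ℂ) : ℕ → Matrix (Fin N) (Fin N) ℂ
  | 0 => P
  | n + 1 => g * Zm g P n + Zm g P n * g

/-- the calibration functional -/
noncomputable def PhiF (F β c : ℝ[X]) (g P : Matrix (Fin N) (Fin N) ℂ) : ℝ :=
  (∑ n ∈ F.support, F.coeff n * ((1 / 2) * (P * Zm g P n).trace.re))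
    + (∑ n ∈ β.support, β.coeff n * (g ^ n * P).trace.re)
    + ∑ n ∈ c.support, c.coeff n * (g ^ n).trace.re

/-- conjugation invariance -/
theorem Zm_conj (W W' g P : Matrix (Fin N) (Fin N) ℂ) (h : W' * W = 1) (n : ℕ) :
    Zm (W * g * W') (W * P * W') n = W * Zm g P n * W' := by
  induction n with
  | zero => rfl
  | succ n ih =>
    simp only [Zm, ih]
    have e1 : W * g * W' * (W * Zm g P n * W') = W * (g * Zm g P n) * W' := by
      calc W * g * W' * (W * Zm g P n * W') = W * g * (W' * W) * (Zm g P n * W') := by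
            noncomm_ring
        _ = _ := by rw [h]; noncomm_ring
    have e2 : W * Zm g P n * W' * (W * g * W') = W * (Zm g P n * g) * W' := by
      calc W * Zm g P n * W' * (W * g * W') = W * Zm g P n * (W' * W) * (g * W') := by
            noncomm_ring
        _ = _ := by rw [h]; noncomm_ring
    rw [e1, e2, Matrix.mul_add, Matrix.add_mul]

theorem pow_conj (W W' g : Matrix (Fin N) (Fin N) ℂ) (h : W' * W = 1) (h' : W * W' = 1) (n : ℕ) :
    (W * g * W') ^ n = W * g ^ n * W' := by
  induction n with
  | zero => simp [h']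
  | succ n ih =>
    rw [pow_succ, ih, pow_succ]
    calc W * g ^ n * W' * (W * g * W') = W * g ^ n * (W' * W) * (g * W') := by noncomm_ring
      _ = _ := by rw [h]; noncomm_ring

theorem trace_conj (W W' A : Matrix (Fin N) (Fin N) ℂ) (h : W' * W = 1) :
    (W * A * W').trace = A.trace := by
  rw [Matrix.trace_mul_comm, ← Matrix.mul_assoc, h, Matrix.one_mul]

theorem PhiF_conj (F β c : ℝ[X]) (W W' g P : Matrix (Fin N) (Fin N) ℂ) (h : W' * W = 1)
    (h' : W * W' = 1) : PhiF F β c (W * g * W') (W * P * W') = PhiF F β c g P := by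
  unfold PhiF
  congr 1
  · congr 1
    · refine Finset.sum_congr rfl fun n _ => ?_
      rw [Zm_conj W W' g P h]
      have : W * P * W' * (W * Zm g P n * W') = W * (P * Zm g P n) * W' := by
        calc W * P * W' * (W * Zm g P n * W') = W * P * (W' * W) * (Zm g P n * W') := by
              noncomm_ring
          _ = _ := by rw [h]; noncomm_ring
      rw [this, trace_conj W W' _ h]
    · refine Finset.sum_congr rfl fun n _ => ?_
      rw [pow_conj W W' g h h']
      have : W * g ^ n * W' * (W * P * W') = W * (g ^ n * P) * W' := by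
        calc W * g ^ n * W' * (W * P * W') = W * g ^ n * (W' * W) * (P * W') := by noncomm_ring
          _ = _ := by rw [h]; noncomm_ring
      rw [this, trace_conj W W' _ h]
  · refine Finset.sum_congr rfl fun n _ => ?_
    rw [pow_conj W W' g h h', trace_conj W W' _ h]

/-- smoothness -/
theorem contDiff_Zm (n : ℕ) : ∀ i k, ContDiff ℝ 1
    (fun y : (Fin N → Fin N → ℂ) × (Fin N → Fin N → ℂ) =>
      Zm (Matrix.of y.1) (Matrix.of y.2) n i k) := by
  induction n with
  | zero =>
    intro i k
    simp only [Zm, Matrix.of_apply]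
    fun_prop
  | succ n ih =>
    intro i k
    simp only [Zm, Matrix.add_apply, Matrix.mul_apply, Matrix.of_apply]
    refine ContDiff.add (ContDiff.sum fun l _ => ?_) (ContDiff.sum fun l _ => ?_)
    · refine ContDiff.mul ?_ (ih l k)
      fun_prop
    · refine ContDiff.mul (ih i l) ?_
      fun_prop

theorem contDiff_pow (n : ℕ) : ∀ i k, ContDiff ℝ 1
    (fun y : (Fin N → Fin N → ℂ) × (Fin N → Fin N → ℂ) =>
      ((Matrix.of y.1 : Matrix (Fin N) (Fin N) ℂ) ^ n) i k) := by
  induction n with
  | zero =>
    intro i k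
    simp only [pow_zero]
    fun_prop
  | succ n ih =>
    intro i k
    simp only [pow_succ, Matrix.mul_apply, Matrix.of_apply]
    refine ContDiff.sum fun l _ => ?_
    refine ContDiff.mul (ih i l) ?_
    fun_prop

theorem contDiff_PhiF (F β c : ℝ[X]) : ContDiff ℝ 1
    (fun y : (Fin N → Fin N → ℂ) × (Fin N → Fin N → ℂ) =>
      PhiF F β c (Matrix.of y.1) (Matrix.of y.2)) := by
  have hre : ContDiff ℝ 1 (fun z : ℂ => z.re) := Complex.reCLM.contDiff
  unfold PhiF
  refine ContDiff.add (ContDiff.add (ContDiff.sum fun n _ => ?_) (ContDiff.sum fun n _ => ?_))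
    (ContDiff.sum fun n _ => ?_)
  · refine contDiff_const.mul (contDiff_const.mul (hre.comp ?_))
    simp only [Matrix.trace, Matrix.diag_apply, Matrix.mul_apply, Matrix.of_apply]
    refine ContDiff.sum fun i _ => ContDiff.sum fun l _ => ContDiff.mul ?_ (contDiff_Zm n l i)
    fun_prop
  · refine contDiff_const.mul (hre.comp ?_)
    simp only [Matrix.trace, Matrix.diag_apply, Matrix.mul_apply, Matrix.of_apply]
    refine ContDiff.sum fun i _ => ContDiff.sum fun l _ => ContDiff.mul (contDiff_pow n i l) ?_
    fun_prop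
  · refine contDiff_const.mul (hre.comp ?_)
    simp only [Matrix.trace, Matrix.diag_apply]
    exact ContDiff.sum fun i _ => contDiff_pow n i i

end Vale.LT.H29
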