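import Vale.Agent.H29.LT.Deriv

/-!
P371, Task B helpers: directional derivative at a diagonal point.
-/

open Matrix
open scoped ComplexOrder

namespace Vale.LT.H29

open Polynomial

variable {N : ℕ}

theorem Zm_diag (lam : Fin N → ℝ) (P : Matrix (Fin N) (Fin N) ℂ) (n : ℕ) : ∀ i k,
    Zm (Matrix.diagonal fun i => (lam i : ℂ)) P n i k = (((lam i + lam k) ^ n : ℝ) : ℂ) * P i k := by
  induction n with
  | zero => intro i k; simp [Zm]
  | succ n ih =>
    intro i k
    simp only [Zm, Matrix.add_apply, Matrix.diagonal_mul, Matrix.mul_diagonal, ih]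
    push_cast
    ring

theorem pow_diag (lam : Fin N → ℝ) (n : ℕ) :
    (Matrix.diagonal fun i => (lam i : ℂ)) ^ n
      = Matrix.diagonal fun i => (((lam i) ^ n : ℝ) : ℂ) := by
  rw [Matrix.diagonal_pow]
  congr 1
  funext i
  simp

/-- derivative of `Zm` entries -/
noncomputable def DZ (lam : Fin N → ℝ) (P B : Matrix (Fin N) (Fin N) ℂ) (n : ℕ) (i k : Fin N) : ℂ :=
  (((lam i + lam k) ^ n : ℝ) : ℂ) * B i k
    + ∑ l, P i l * P l k * ((dd n (lam l + lam k) (lam i + lam k)
        + dd n (lam i + lam l) (lam i + lam k) : ℝ) : ℂ)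

theorem hasDerivAt_line (A B : Matrix (Fin N) (Fin N) ℂ) (i k : Fin N) :
    HasDerivAt (fun t : ℝ => (A + (t : ℂ) • B) i k) (B i k) 0 := by
  have h1 : HasDerivAt (fun t : ℝ => (t : ℂ)) 1 0 := Complex.ofRealCLM.hasDerivAt
  have h2 : HasDerivAt (fun t : ℝ => A i k + (t : ℂ) * B i k) (0 + 1 * B i k) 0 :=
    (hasDerivAt_const _ _).add (h1.mul_const _)
  simpa [Matrix.add_apply, Matrix.smul_apply] using h2

theorem hasDerivAt_Zm (lam : Fin N → ℝ) (P B : Matrix (Fin N) (Fin N) ℂ) (n : ℕ) : ∀ i k,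
    HasDerivAt (fun t : ℝ => Zm ((Matrix.diagonal fun i => (lam i : ℂ)) + (t : ℂ) • P)
      (P + (t : ℂ) • B) n i k) (DZ lam P B n i k) 0 := by
  induction n with
  | zero =>
    intro i k
    have h := hasDerivAt_line P B i k
    simp only [Zm]
    convert h using 1
    simp [DZ, dd]
  | succ n ih =>
    intro i k
    simp only [Zm, Matrix.add_apply (_ * _) (_ * _), Matrix.mul_apply]
    have hG : ∀ a b, HasDerivAt (fun t : ℝ =>
        ((Matrix.diagonal fun i => (lam i : ℂ)) + (t : ℂ) • P) a b) (P a b) 0 :=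
      fun a b => hasDerivAt_line _ _ a b
    have e1 := HasDerivAt.fun_sum (u := Finset.univ)
      (fun l (_ : l ∈ (Finset.univ : Finset (Fin N))) => (hG i l).mul (ih l k))
    have e2 := HasDerivAt.fun_sum (u := Finset.univ)
      (fun l (_ : l ∈ (Finset.univ : Finset (Fin N))) => (ih i l).mul (hG l k))
    have e3 := e1.add e2
    refine HasDerivAt.congr_deriv e3 ?_
    simp only [Complex.ofReal_zero, zero_smul, add_zero, Zm_diag]
    rw [Finset.sum_add_distrib, Finset.sum_add_distrib]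
    have s1 : ∑ l, (Matrix.diagonal fun i => (lam i : ℂ)) i l * DZ lam P B n l k
        = (lam i : ℂ) * DZ lam P B n i k := by
      rw [Finset.sum_eq_single i]
      · simp
      · intro l _ hl; rw [Matrix.diagonal_apply_ne _ (Ne.symm hl), zero_mul]
      · simp
    have s2 : ∑ l, DZ lam P B n i l * (Matrix.diagonal fun i => (lam i : ℂ)) l k
        = DZ lam P B n i k * (lam k : ℂ) := by
      rw [Finset.sum_eq_single k]
      · simp
      · intro l _ hl; rw [Matrix.diagonal_apply_ne _ hl, mul_zero]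
      · simp
    rw [s1, s2]
    have s3 : DZ lam P B (n + 1) i k = (∑ l, P i l * ((((lam l + lam k) ^ n : ℝ) : ℂ) * P l k))
        + (∑ l, (((lam i + lam l) ^ n : ℝ) : ℂ) * P i l * P l k)
        + ((lam i : ℂ) + (lam k : ℂ)) * DZ lam P B n i k := by
      simp only [DZ, dd]
      rw [mul_add, Finset.mul_sum, add_comm (((((lam i : ℂ) + (lam k : ℂ))) * _)) _,
        ← add_assoc, ← Finset.sum_add_distrib, ← Finset.sum_add_distrib, add_comm]
      congr 1
      · refine Finset.sum_congr rfl fun l _ => ?_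
        push_cast
        ring
      · push_cast
        ring
    rw [s3]
    ring

theorem hasDerivAt_powm (lam : Fin N → ℝ) (P : Matrix (Fin N) (Fin N) ℂ) (n : ℕ) : ∀ i k,
    HasDerivAt (fun t : ℝ => (((Matrix.diagonal fun i => (lam i : ℂ)) + (t : ℂ) • P) ^ n) i k)
      (P i k * ((dd n (lam i) (lam k) : ℝ) : ℂ)) 0 := by
  induction n with
  | zero =>
    intro i k
    simp only [pow_zero, dd, Complex.ofReal_zero, mul_zero]
    exact hasDerivAt_const _ _
  | succ n ih =>
    intro i k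
    simp only [pow_succ, Matrix.mul_apply]
    have hG : ∀ a b, HasDerivAt (fun t : ℝ =>
        ((Matrix.diagonal fun i => (lam i : ℂ)) + (t : ℂ) • P) a b) (P a b) 0 :=
      fun a b => hasDerivAt_line _ _ a b
    have e2 := HasDerivAt.fun_sum (u := Finset.univ)
      (fun l (_ : l ∈ (Finset.univ : Finset (Fin N))) => (ih i l).mul (hG l k))
    refine HasDerivAt.congr_deriv e2 ?_
    simp only [Complex.ofReal_zero, zero_smul, add_zero, pow_diag]
    rw [Finset.sum_add_distrib]
    have s1 : ∑ l, (Matrix.diagonal fun i => (((lam i) ^ n : ℝ) : ℂ)) i l * P l k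
        = (((lam i) ^ n : ℝ) : ℂ) * P i k := by
      rw [Finset.sum_eq_single i]
      · simp
      · intro l _ hl; rw [Matrix.diagonal_apply_ne _ (Ne.symm hl), zero_mul]
      · simp
    have s2 : ∑ l, P i l * ((dd n (lam i) (lam l) : ℝ) : ℂ)
          * (Matrix.diagonal fun i => (lam i : ℂ)) l k
        = P i k * ((dd n (lam i) (lam k) : ℝ) : ℂ) * (lam k : ℂ) := by
      rw [Finset.sum_eq_single k]
      · simp
      · intro l _ hl; rw [Matrix.diagonal_apply_ne _ hl, mul_zero]
      · simp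
    rw [s1, s2]
    simp only [dd]
    push_cast
    ring

theorem sum3_cyc (f : Fin N → Fin N → Fin N → ℂ) :
    ∑ i, ∑ k, ∑ l, f i k l = ∑ i, ∑ k, ∑ l, f l i k := by
  -- rename
  calc ∑ i, ∑ k, ∑ l, f i k l = ∑ k, ∑ i, ∑ l, f i k l := Finset.sum_comm
    _ = ∑ k, ∑ l, ∑ i, f i k l := Finset.sum_congr rfl fun k _ => Finset.sum_comm
    _ = ∑ i, ∑ k, ∑ l, f l i k := rfl

/-- the cubic divided-difference sum -/
noncomputable def S3 (lam : Fin N → ℝ) (P : Matrix (Fin N) (Fin N) ℂ) (q : ℝ → ℝ → ℝ) : ℂ :=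
  ∑ i, ∑ k, ∑ l, P i k * P k l * P l i * ((q (lam i + lam l) (lam k + lam l) : ℝ) : ℂ)

theorem hasDerivAt_tr2 (lam : Fin N → ℝ) (P B : Matrix (Fin N) (Fin N) ℂ) (n : ℕ) :
    HasDerivAt (fun t : ℝ => ((P + (t : ℂ) • B) *
        Zm ((Matrix.diagonal fun i => (lam i : ℂ)) + (t : ℂ) • P) (P + (t : ℂ) • B) n).trace)
      (2 * (∑ i, ∑ k, B i k * ((((lam k + lam i) ^ n : ℝ) : ℂ) * P k i))
        + 2 * S3 lam P (dd n)) 0 := by
  simp only [Matrix.trace, Matrix.diag_apply, Matrix.mul_apply]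
  have h := HasDerivAt.fun_sum (u := Finset.univ)
      (fun i (_ : i ∈ (Finset.univ : Finset (Fin N))) =>
        HasDerivAt.fun_sum (u := Finset.univ)
          (fun k (_ : k ∈ (Finset.univ : Finset (Fin N))) =>
            (hasDerivAt_line P B i k).mul (hasDerivAt_Zm lam P B n k i)))
  refine HasDerivAt.congr_deriv h ?_
  simp only [Complex.ofReal_zero, zero_smul, add_zero, Zm_diag, DZ]
  simp only [Finset.sum_add_distrib, mul_add, Finset.mul_sum]
  have c1 : ∑ i, ∑ k, P i k * ((((lam k + lam i) ^ n : ℝ) : ℂ) * B k i)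
      = ∑ i, ∑ k, B i k * ((((lam k + lam i) ^ n : ℝ) : ℂ) * P k i) := by
    rw [Finset.sum_comm]
    refine Finset.sum_congr rfl fun i _ => Finset.sum_congr rfl fun k _ => ?_
    rw [add_comm (lam k) (lam i)]; ring
  have c2 : ∑ i, ∑ k, ∑ l, P i k * (P k l * P l i * (((dd n (lam l + lam i) (lam k + lam i)
        + dd n (lam k + lam l) (lam k + lam i) : ℝ)) : ℂ)) = 2 * S3 lam P (dd n) := by
    have d1 : ∑ i, ∑ k, ∑ l, P i k * P k l * P l i *
        ((dd n (lam l + lam i) (lam k + lam i) : ℝ) : ℂ) = S3 lam P (dd n) := by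
      rw [sum3_cyc, S3]
      refine Finset.sum_congr rfl fun i _ => Finset.sum_congr rfl fun k _ =>
        Finset.sum_congr rfl fun l _ => ?_
      rw [dd_comm n (lam k + lam l) (lam i + lam l)]; ring
    have d2 : ∑ i, ∑ k, ∑ l, P i k * P k l * P l i *
        ((dd n (lam k + lam l) (lam k + lam i) : ℝ) : ℂ) = S3 lam P (dd n) := by
      rw [S3, sum3_cyc (fun i k l => P i k * P k l * P l i *
        ((dd n (lam i + lam l) (lam k + lam l) : ℝ) : ℂ))]
      refine Finset.sum_congr rfl fun i _ => Finset.sum_congr rfl fun k _ =>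
        Finset.sum_congr rfl fun l _ => ?_
      rw [add_comm (lam l) (lam k), add_comm (lam i) (lam k)]; ring
    calc _ = ∑ i, ∑ k, ∑ l, (P i k * P k l * P l i *
              ((dd n (lam l + lam i) (lam k + lam i) : ℝ) : ℂ) + P i k * P k l * P l i *
              ((dd n (lam k + lam l) (lam k + lam i) : ℝ) : ℂ)) := by
          refine Finset.sum_congr rfl fun i _ => Finset.sum_congr rfl fun k _ =>
            Finset.sum_congr rfl fun l _ => ?_
          push_cast; ring
      _ = S3 lam P (dd n) + S3 lam P (dd n) := by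
          simp only [Finset.sum_add_distrib]
          rw [d1, d2]
      _ = _ := by ring
  have c3 : ∀ (x y : ℂ), (∑ i, ∑ k, ∑ l, P i k * (P k l * P l i *
      (((dd n (lam l + lam i) (lam k + lam i)
        + dd n (lam k + lam l) (lam k + lam i) : ℝ)) : ℂ))) = 2 * S3 lam P (dd n) := fun _ _ => c2
  rw [c1, c2]
  simp only [← Finset.mul_sum]
  ring

end Vale.LT.H29
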