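import Vale.Agent.H29.LT.Deriv2

/-!
P371, Task B helpers: the directional derivative of the calibration at a diagonal point.
-/

open Matrix
open scoped ComplexOrder

namespace Vale.LT.H29

open Polynomial

variable {N : ℕ}

theorem swap1 {ι : Type*} (t : Finset ι) (s : Finset ℕ) (a : ℕ → ℝ) (φ : ℕ → ι → ℝ) :
    ∑ n ∈ s, a n * ∑ i ∈ t, φ n i = ∑ i ∈ t, ∑ n ∈ s, a n * φ n i := by
  simp only [Finset.mul_sum]
  exact Finset.sum_comm

theorem re_ofReal_mul (x : ℝ) (z : ℂ) : ((x : ℂ) * z).re = x * z.re := by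
  simp

theorem re_mul_ofReal (x : ℝ) (z : ℂ) : (z * (x : ℂ)).re = z.re * x := by
  simp

/-- the directional derivative -/
noncomputable def DPhi (F β c : ℝ[X]) (lam : Fin N → ℝ) (P B : Matrix (Fin N) (Fin N) ℂ) : ℝ :=
  ((∑ i, ∑ k, F.eval (lam k + lam i) * (B i k * P k i).re)
    + ∑ i, ∑ k, ∑ l, (P i k * P k l * P l i).re * ddp F (lam i + lam l) (lam k + lam l))
  + ((∑ i, β.eval (lam i) * (B i i).re)
    + ∑ i, ∑ k, (P i k * P k i).re * ddp β (lam i) (lam k))
  + ∑ i, (P i i).re * c.derivative.eval (lam i)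

theorem hasDerivAt_re {f : ℝ → ℂ} {f' : ℂ} {x : ℝ} (h : HasDerivAt f f' x) :
    HasDerivAt (fun t => (f t).re) f'.re x :=
  (Complex.reCLM.hasFDerivAt (x := f x)).comp_hasDerivAt x h

theorem partF (F : ℝ[X]) (lam : Fin N → ℝ) (P B : Matrix (Fin N) (Fin N) ℂ) :
    HasDerivAt (fun t : ℝ => ∑ n ∈ F.support, F.coeff n * ((1 / 2) * ((P + (t : ℂ) • B) *
        Zm ((Matrix.diagonal fun i => (lam i : ℂ)) + (t : ℂ) • P) (P + (t : ℂ) • B) n).trace.re))
      ((∑ i, ∑ k, F.eval (lam k + lam i) * (B i k * P k i).re)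
    + ∑ i, ∑ k, ∑ l, (P i k * P k l * P l i).re * ddp F (lam i + lam l) (lam k + lam l)) 0 := by
  have h := HasDerivAt.fun_sum (u := F.support) (fun n (_ : n ∈ F.support) =>
    ((hasDerivAt_re (hasDerivAt_tr2 lam P B n)).const_mul (1 / 2 : ℝ)).const_mul (F.coeff n))
  refine HasDerivAt.congr_deriv h ?_
  have e1 : ∀ n, (1 / 2 : ℝ) * (2 * (∑ i, ∑ k, B i k * ((((lam k + lam i) ^ n : ℝ) : ℂ) * P k i))
        + 2 * S3 lam P (dd n)).re = (∑ i, ∑ k, (lam k + lam i) ^ n * (B i k * P k i).re)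
        + ∑ i, ∑ k, ∑ l, (P i k * P k l * P l i).re * dd n (lam i + lam l) (lam k + lam l) := by
    intro n
    have a1 : (2 * (∑ i, ∑ k, B i k * ((((lam k + lam i) ^ n : ℝ) : ℂ) * P k i))
        + 2 * S3 lam P (dd n)).re = 2 * (∑ i, ∑ k, B i k * ((((lam k + lam i) ^ n : ℝ) : ℂ)
          * P k i)).re + 2 * (S3 lam P (dd n)).re := by
      have : ∀ z w : ℂ, (2 * z + 2 * w).re = 2 * z.re + 2 * w.re := by
        intro z w; simp
      exact this _ _
    rw [a1, S3]
    simp only [Complex.re_sum]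
    have a2 : ∀ i k, (B i k * ((((lam k + lam i) ^ n : ℝ) : ℂ) * P k i)).re
        = (lam k + lam i) ^ n * (B i k * P k i).re := by
      intro i k
      rw [← re_ofReal_mul]; congr 1; ring
    simp only [a2, re_mul_ofReal]
    ring
  simp only [e1]
  simp only [mul_add, Finset.sum_add_distrib]
  congr 1
  · rw [swap1]
    refine Finset.sum_congr rfl fun i _ => ?_
    rw [swap1]
    refine Finset.sum_congr rfl fun k _ => ?_
    rw [eval_eq_sum, Polynomial.sum, Finset.sum_mul]
    refine Finset.sum_congr rfl fun n _ => ?_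
    ring
  · rw [swap1]
    refine Finset.sum_congr rfl fun i _ => ?_
    rw [swap1]
    refine Finset.sum_congr rfl fun k _ => ?_
    rw [swap1]
    refine Finset.sum_congr rfl fun l _ => ?_
    rw [ddp, Finset.mul_sum]
    refine Finset.sum_congr rfl fun n _ => ?_
    ring

theorem hasDerivAt_trpow (lam : Fin N → ℝ) (P B : Matrix (Fin N) (Fin N) ℂ) (n : ℕ) :
    HasDerivAt (fun t : ℝ => (((Matrix.diagonal fun i => (lam i : ℂ)) + (t : ℂ) • P) ^ n
        * (P + (t : ℂ) • B)).trace)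
      ((∑ i, (((lam i) ^ n : ℝ) : ℂ) * B i i)
        + ∑ i, ∑ k, P i k * P k i * ((dd n (lam i) (lam k) : ℝ) : ℂ)) 0 := by
  simp only [Matrix.trace, Matrix.diag_apply, Matrix.mul_apply]
  have h := HasDerivAt.fun_sum (u := Finset.univ)
      (fun i (_ : i ∈ (Finset.univ : Finset (Fin N))) =>
        HasDerivAt.fun_sum (u := Finset.univ)
          (fun k (_ : k ∈ (Finset.univ : Finset (Fin N))) =>
            (hasDerivAt_powm lam P n i k).mul (hasDerivAt_line P B k i)))
  refine HasDerivAt.congr_deriv h ?_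
  simp only [Complex.ofReal_zero, zero_smul, add_zero, pow_diag]
  simp only [Finset.sum_add_distrib]
  rw [add_comm]
  congr 1
  · refine Finset.sum_congr rfl fun i _ => ?_
    rw [Finset.sum_eq_single i]
    · simp
    · intro l _ hl; rw [Matrix.diagonal_apply_ne _ (Ne.symm hl), zero_mul]
    · simp
  · refine Finset.sum_congr rfl fun i _ => Finset.sum_congr rfl fun k _ => ?_
    ring

theorem partβ (β : ℝ[X]) (lam : Fin N → ℝ) (P B : Matrix (Fin N) (Fin N) ℂ) :
    HasDerivAt (fun t : ℝ => ∑ n ∈ β.support, β.coeff n *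
        (((Matrix.diagonal fun i => (lam i : ℂ)) + (t : ℂ) • P) ^ n * (P + (t : ℂ) • B)).trace.re)
      ((∑ i, β.eval (lam i) * (B i i).re)
    + ∑ i, ∑ k, (P i k * P k i).re * ddp β (lam i) (lam k)) 0 := by
  have h := HasDerivAt.fun_sum (u := β.support) (fun n (_ : n ∈ β.support) =>
    ((hasDerivAt_re (hasDerivAt_trpow lam P B n)).const_mul (β.coeff n)))
  refine HasDerivAt.congr_deriv h ?_
  simp only [Complex.add_re, Complex.re_sum, re_ofReal_mul, re_mul_ofReal]
  simp only [mul_add, Finset.sum_add_distrib]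
  congr 1
  · rw [swap1]
    refine Finset.sum_congr rfl fun i _ => ?_
    rw [eval_eq_sum, Polynomial.sum, Finset.sum_mul]
    refine Finset.sum_congr rfl fun n _ => ?_
    ring
  · rw [swap1]
    refine Finset.sum_congr rfl fun i _ => ?_
    rw [swap1]
    refine Finset.sum_congr rfl fun k _ => ?_
    rw [ddp, Finset.mul_sum]
    refine Finset.sum_congr rfl fun n _ => ?_
    ring

theorem partc (c : ℝ[X]) (lam : Fin N → ℝ) (P : Matrix (Fin N) (Fin N) ℂ) :
    HasDerivAt (fun t : ℝ => ∑ n ∈ c.support, c.coeff n *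
        (((Matrix.diagonal fun i => (lam i : ℂ)) + (t : ℂ) • P) ^ n).trace.re)
      (∑ i, (P i i).re * c.derivative.eval (lam i)) 0 := by
  have h0 : ∀ n, HasDerivAt (fun t : ℝ =>
      (((Matrix.diagonal fun i => (lam i : ℂ)) + (t : ℂ) • P) ^ n).trace)
      (∑ i, P i i * ((dd n (lam i) (lam i) : ℝ) : ℂ)) 0 := by
    intro n
    simp only [Matrix.trace, Matrix.diag_apply]
    exact HasDerivAt.fun_sum (u := Finset.univ)
      (fun i (_ : i ∈ (Finset.univ : Finset (Fin N))) => hasDerivAt_powm lam P n i i)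
  have h := HasDerivAt.fun_sum (u := c.support) (fun n (_ : n ∈ c.support) =>
    ((hasDerivAt_re (h0 n)).const_mul (c.coeff n)))
  refine HasDerivAt.congr_deriv h ?_
  simp only [Complex.re_sum, re_mul_ofReal]
  rw [swap1]
  refine Finset.sum_congr rfl fun i _ => ?_
  rw [← ddp_self, ddp, Finset.mul_sum]
  refine Finset.sum_congr rfl fun n _ => ?_
  ring

theorem hasDerivAt_PhiF (F β c : ℝ[X]) (lam : Fin N → ℝ) (P B : Matrix (Fin N) (Fin N) ℂ) :
    HasDerivAt (fun t : ℝ => PhiF F β c ((Matrix.diagonal fun i => (lam i : ℂ)) + (t : ℂ) • P)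
      (P + (t : ℂ) • B)) (DPhi F β c lam P B) 0 :=
  ((partF F lam P B).add (partβ β lam P B)).add (partc c lam P)

end Vale.LT.H29
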