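import Vale.Agent.H29.LT.Trig

/-!
P371, Task B helpers: the inequality at a diagonal point.
-/

open Matrix
open scoped ComplexOrder

namespace Vale.LT.H29

open Polynomial

theorem E3_bound (F : ℝ[X]) (δ η M : ℝ) (hδ : 0 < δ) (hη : 0 ≤ η) (hη1 : η ≤ 1)
    (hM : ∀ x ∈ Set.Icc (2 * δ) (Real.pi - 2 * δ), |ct x| ≤ M)
    (hF : ∀ x ∈ Set.Icc (2 * δ) (Real.pi - 2 * δ), |F.eval x - ct x| ≤ η)
    (hF' : ∀ x ∈ Set.Icc (2 * δ) (Real.pi - 2 * δ), |F.derivative.eval x - ct' x| ≤ η)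
    (A B : ℝ) (hA : A ∈ Set.Icc (2 * δ) (Real.pi - 2 * δ))
    (hB : B ∈ Set.Icc (2 * δ) (Real.pi - 2 * δ)) :
    |(F.eval A * F.eval B + 1 + ddp F A B) - (ct A * ct B + 1 + qc A B)| ≤ η * (2 * M + 2) := by
  have hs : ∀ x ∈ Set.Icc (2 * δ) (Real.pi - 2 * δ), Real.sin x ≠ 0 := fun x hx =>
    (Real.sin_pos_of_pos_of_lt_pi (by linarith [hx.1]) (by linarith [hx.2])).ne'
  have h1 := abs_ddp_sub_le F ct ct' (2 * δ) (Real.pi - 2 * δ) η
    (fun x hx => hasDerivAt_ct (hs x hx)) hF' qc (fun x hx y hy => qc_mul (hs x hx) (hs y hy))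
    (fun x _ => qc_self) A B hA hB
  have hM0 : 0 ≤ M := (abs_nonneg _).trans (hM A hA)
  have h2 : |F.eval A| ≤ M + 1 := by
    have : F.eval A = (F.eval A - ct A) + ct A := by ring
    rw [this]
    refine (abs_add_le _ _).trans ?_
    linarith [hF A hA, hM A hA]
  have e : (F.eval A * F.eval B + 1 + ddp F A B) - (ct A * ct B + 1 + qc A B)
      = F.eval A * (F.eval B - ct B) + (F.eval A - ct A) * ct B + (ddp F A B - qc A B) := by ring
  rw [e]
  refine (abs_add_le _ _).trans ?_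
  have h3 := abs_add_le (F.eval A * (F.eval B - ct B)) ((F.eval A - ct A) * ct B)
  rw [abs_mul, abs_mul] at h3
  have h4 : |F.eval A| * |F.eval B - ct B| ≤ (M + 1) * η :=
    mul_le_mul h2 (hF B hB) (abs_nonneg _) (by linarith)
  have h5 : |F.eval A - ct A| * |ct B| ≤ η * M :=
    mul_le_mul (hF A hA) (hM B hB) (abs_nonneg _) hη
  nlinarith

theorem E2_bound (F β : ℝ[X]) (b δ η M B0 : ℝ) (hδ : 0 < δ) (hη : 0 ≤ η)
    (hη1 : η ≤ 1)
    (hM : ∀ x ∈ Set.Icc (2 * δ) (Real.pi - 2 * δ), |ct x| ≤ M)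
    (hB0 : ∀ x ∈ Set.Icc δ (Real.pi / 2 - δ), |bt b x| ≤ B0)
    (hF : ∀ x ∈ Set.Icc (2 * δ) (Real.pi - 2 * δ), |F.eval x - ct x| ≤ η)
    (hβ : ∀ x ∈ Set.Icc δ (Real.pi / 2 - δ), |β.eval x - bt b x| ≤ η)
    (hβ' : ∀ x ∈ Set.Icc δ (Real.pi / 2 - δ), |β.derivative.eval x - bt' b x| ≤ η)
    (x y : ℝ) (hx : x ∈ Set.Icc δ (Real.pi / 2 - δ)) (hy : y ∈ Set.Icc δ (Real.pi / 2 - δ)) :
    |(F.eval (x + y) * (β.eval x + β.eval y) + ddp β x y + b)
      - (ct (x + y) * (bt b x + bt b y) + qb b x y + b)| ≤ η * (2 * M + 2 * B0 + 3) := by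
  have hc : ∀ x ∈ Set.Icc δ (Real.pi / 2 - δ), Real.cos x ≠ 0 := fun x hx =>
    (Real.cos_pos_of_mem_Ioo ⟨by linarith [hx.1, Real.pi_pos], by linarith [hx.2]⟩).ne'
  have hS : x + y ∈ Set.Icc (2 * δ) (Real.pi - 2 * δ) :=
    ⟨by linarith [hx.1, hy.1], by linarith [hx.2, hy.2]⟩
  have h1 := abs_ddp_sub_le β (bt b) (bt' b) δ (Real.pi / 2 - δ) η
    (fun x hx => hasDerivAt_bt b (hc x hx)) hβ' (qb b)
    (fun x hx y hy => qb_mul b (hc x hx) (hc y hy))
    (fun x _ => qb_self b) x y hx hy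
  have hM0 : 0 ≤ M := (abs_nonneg _).trans (hM _ hS)
  have hB00 : 0 ≤ B0 := (abs_nonneg _).trans (hB0 x hx)
  have h2 : |F.eval (x + y)| ≤ M + 1 := by
    have : F.eval (x + y) = (F.eval (x + y) - ct (x + y)) + ct (x + y) := by ring
    rw [this]
    refine (abs_add_le _ _).trans ?_
    linarith [hF _ hS, hM _ hS]
  have e : (F.eval (x + y) * (β.eval x + β.eval y) + ddp β x y + b)
      - (ct (x + y) * (bt b x + bt b y) + qb b x y + b)
      = F.eval (x + y) * ((β.eval x - bt b x) + (β.eval y - bt b y))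
        + (F.eval (x + y) - ct (x + y)) * (bt b x + bt b y) + (ddp β x y - qb b x y) := by ring
  rw [e]
  refine (abs_add_le _ _).trans ?_
  have h3 := abs_add_le (F.eval (x + y) * ((β.eval x - bt b x) + (β.eval y - bt b y)))
    ((F.eval (x + y) - ct (x + y)) * (bt b x + bt b y))
  rw [abs_mul, abs_mul] at h3
  have h6 : |(β.eval x - bt b x) + (β.eval y - bt b y)| ≤ 2 * η := by
    refine (abs_add_le _ _).trans ?_
    linarith [hβ x hx, hβ y hy]
  have h7 : |bt b x + bt b y| ≤ 2 * B0 := by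
    refine (abs_add_le _ _).trans ?_
    linarith [hB0 x hx, hB0 y hy]
  have h4 : |F.eval (x + y)| * |(β.eval x - bt b x) + (β.eval y - bt b y)| ≤ (M + 1) * (2 * η) :=
    mul_le_mul h2 h6 (abs_nonneg _) (by linarith)
  have h5 : |F.eval (x + y) - ct (x + y)| * |bt b x + bt b y| ≤ η * (2 * B0) :=
    mul_le_mul (hF _ hS) h7 (abs_nonneg _) hη
  nlinarith

variable {N m : ℕ}

theorem diag_ineq (b δ η M B0 : ℝ) (hb : 0 ≤ b) (hδ : 0 < δ) (hη : 0 ≤ η)
    (hη1 : η ≤ 1)
    (hM : ∀ x ∈ Set.Icc (2 * δ) (Real.pi - 2 * δ), |ct x| ≤ M)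
    (hB0 : ∀ x ∈ Set.Icc δ (Real.pi / 2 - δ), |bt b x| ≤ B0) (hM0 : 0 ≤ M) (hB00 : 0 ≤ B0)
    (F β c : ℝ[X]) (hc : c.derivative = -β ^ 2)
    (hF : ∀ x ∈ Set.Icc (2 * δ) (Real.pi - 2 * δ), |F.eval x - ct x| ≤ η)
    (hF' : ∀ x ∈ Set.Icc (2 * δ) (Real.pi - 2 * δ), |F.derivative.eval x - ct' x| ≤ η)
    (hβ : ∀ x ∈ Set.Icc δ (Real.pi / 2 - δ), |β.eval x - bt b x| ≤ η)
    (hβ' : ∀ x ∈ Set.Icc δ (Real.pi / 2 - δ), |β.derivative.eval x - bt' b x| ≤ η)
    (lam : Fin N → ℝ) (hlam : ∀ i, lam i ∈ Set.Icc δ (Real.pi / 2 - δ))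
    (U V : Matrix (Fin N) (Fin m) ℂ) :
    DPhi F β c lam (U * Uᴴ) (V * Uᴴ + U * Vᴴ) + ((U * Uᴴ) ^ 3).trace.re
        + b * ((U * Uᴴ) ^ 2).trace.re
      ≤ (V * Vᴴ).trace.re + η * (N ^ 3 * (2 * M + 2)) * (U * Uᴴ).trace.re ^ 3
        + η * (N ^ 2 * (2 * M + 2 * B0 + 3)) * (U * Uᴴ).trace.re ^ 2 := by
  set P := U * Uᴴ with hP
  set T := P.trace.re with hT
  have hT0 : 0 ≤ T := trace_nonneg U
  have hent : ∀ i k, ‖P i k‖ ≤ T := fun i k => norm_entry_le U i k
  have hPp : P.PosSemidef := Matrix.posSemidef_self_mul_conjTranspose U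
  have hPh : Pᴴ = P := hPp.isHermitian
  have hsum : ∀ i k, lam i + lam k ∈ Set.Icc (2 * δ) (Real.pi - 2 * δ) := fun i k =>
    ⟨by linarith [(hlam i).1, (hlam k).1], by linarith [(hlam i).2, (hlam k).2]⟩
  have hs : ∀ x ∈ Set.Icc (2 * δ) (Real.pi - 2 * δ), 0 < Real.sin x := fun x hx =>
    (Real.sin_pos_of_pos_of_lt_pi (by linarith [hx.1]) (by linarith [hx.2]))
  have hcos : ∀ x ∈ Set.Icc δ (Real.pi / 2 - δ), 0 < Real.cos x := fun x hx =>
    (Real.cos_pos_of_mem_Ioo ⟨by linarith [hx.1, Real.pi_pos], by linarith [hx.2]⟩)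
  have key := key_ineq F β c hc b lam U V P hP
  refine key.trans ?_
  -- cubic part
  have c3 := cubic_nonneg P hPp lam (fun i => ⟨by linarith [(hlam i).1], by
    linarith [(hlam i).2]⟩)
  have h3 : (∑ i, ∑ k, ∑ l, (P i k * P k l * P l i).re
          * (F.eval (lam i + lam l) * F.eval (lam k + lam l) + 1
              + ddp F (lam i + lam l) (lam k + lam l)))
      ≤ η * (N ^ 3 * (2 * M + 2)) * T ^ 3 := by
    have e : (∑ i, ∑ k, ∑ l, (P i k * P k l * P l i).re
          * (F.eval (lam i + lam l) * F.eval (lam k + lam l) + 1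
              + ddp F (lam i + lam l) (lam k + lam l)))
        = -(∑ i, ∑ k, ∑ l, (P i k * P k l * P l i).re *
      ((Real.sinc (lam i - lam k) - Real.cos (lam i - lam k)) /
        (Real.sin (lam i + lam l) * Real.sin (lam k + lam l))))
        + ∑ i, ∑ k, ∑ l, (P i k * P k l * P l i).re *
          ((F.eval (lam i + lam l) * F.eval (lam k + lam l) + 1
              + ddp F (lam i + lam l) (lam k + lam l))
            - (ct (lam i + lam l) * ct (lam k + lam l) + 1 + qc (lam i + lam l) (lam k + lam l))) := by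
      simp only [← Finset.sum_neg_distrib, ← Finset.sum_add_distrib]
      refine Finset.sum_congr rfl fun i _ => Finset.sum_congr rfl fun k _ =>
        Finset.sum_congr rfl fun l _ => ?_
      rw [bracket3 (hs _ (hsum i l)).ne' (hs _ (hsum k l)).ne']
      have : lam i + lam l - (lam k + lam l) = lam i - lam k := by ring
      rw [this]
      ring
    rw [e]
    have hb3 : (∑ i, ∑ k, ∑ l, (P i k * P k l * P l i).re *
          ((F.eval (lam i + lam l) * F.eval (lam k + lam l) + 1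
              + ddp F (lam i + lam l) (lam k + lam l))
            - (ct (lam i + lam l) * ct (lam k + lam l) + 1 + qc (lam i + lam l) (lam k + lam l))))
        ≤ ∑ _i : Fin N, ∑ _k : Fin N, ∑ _l : Fin N, T ^ 3 * (η * (2 * M + 2)) := by
      refine Finset.sum_le_sum fun i _ => Finset.sum_le_sum fun k _ =>
        Finset.sum_le_sum fun l _ => ?_
      refine (le_abs_self _).trans ?_
      rw [abs_mul]
      refine mul_le_mul ?_ (E3_bound F δ η M hδ hη hη1 hM hF hF' _ _ (hsum i l) (hsum k l))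
        (abs_nonneg _) (by positivity)
      refine (Complex.abs_re_le_norm _).trans ?_
      rw [norm_mul, norm_mul]
      calc ‖P i k‖ * ‖P k l‖ * ‖P l i‖ ≤ T * T * T := by
            gcongr <;> exact hent _ _
        _ = T ^ 3 := by ring
    simp only [Finset.sum_const, Finset.card_univ, Fintype.card_fin, nsmul_eq_mul] at hb3
    have : (N : ℝ) * (N * (N * (T ^ 3 * (η * (2 * M + 2))))) = η * (N ^ 3 * (2 * M + 2)) * T ^ 3 := by
      ring
    linarith
  have h2 : ∑ i, ∑ k, (P i k * P k i).re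
            * (F.eval (lam i + lam k) * (β.eval (lam i) + β.eval (lam k))
              + ddp β (lam i) (lam k) + b)
      ≤ η * (N ^ 2 * (2 * M + 2 * B0 + 3)) * T ^ 2 := by
    have hb2 : ∑ i, ∑ k, (P i k * P k i).re
            * (F.eval (lam i + lam k) * (β.eval (lam i) + β.eval (lam k))
              + ddp β (lam i) (lam k) + b)
        ≤ ∑ _i : Fin N, ∑ _k : Fin N, T ^ 2 * (η * (2 * M + 2 * B0 + 3)) := by
      refine Finset.sum_le_sum fun i _ => Finset.sum_le_sum fun k _ => ?_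
      have hPki : P k i = star (P i k) := by
        conv_lhs => rw [← hPh]
        rfl
      have hr : (P i k * P k i).re = ‖P i k‖ ^ 2 := by
        rw [hPki, Complex.star_def, Complex.mul_conj, Complex.ofReal_re, Complex.normSq_eq_norm_sq]
      rw [hr]
      have hE := E2_bound F β b δ η M B0 hδ hη hη1 hM hB0 hF hβ hβ' (lam i) (lam k) (hlam i)
        (hlam k)
      have hbr := bracket2 (b := b) (hcos _ (hlam i)).ne' (hcos _ (hlam k)).ne'
        (hs _ (hsum i k)).ne'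
      have hz : |lam i - lam k| ≤ Real.pi := by
        rw [abs_le]
        constructor <;> linarith [(hlam i).1, (hlam i).2, (hlam k).1, (hlam k).2, Real.pi_pos]
      have hneg : 0 ≤ (b / 2) * ((Real.sinc (lam i - lam k) - Real.cos (lam i - lam k))
          / (Real.cos (lam i) * Real.cos (lam k))) := by
        refine mul_nonneg (by linarith) (div_nonneg (by linarith [cos_le_sinc hz])
          (mul_pos (hcos _ (hlam i)) (hcos _ (hlam k))).le)
      have hle : F.eval (lam i + lam k) * (β.eval (lam i) + β.eval (lam k))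
              + ddp β (lam i) (lam k) + b ≤ η * (2 * M + 2 * B0 + 3) := by
        have := (abs_le.mp hE).2
        rw [hbr] at this
        linarith
      calc ‖P i k‖ ^ 2 * _ ≤ ‖P i k‖ ^ 2 * (η * (2 * M + 2 * B0 + 3)) := by gcongr
        _ ≤ T ^ 2 * (η * (2 * M + 2 * B0 + 3)) := by
            have := hent i k
            gcongr
    simp only [Finset.sum_const, Finset.card_univ, Fintype.card_fin, nsmul_eq_mul] at hb2
    have : (N : ℝ) * (N * (T ^ 2 * (η * (2 * M + 2 * B0 + 3))))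
        = η * (N ^ 2 * (2 * M + 2 * B0 + 3)) * T ^ 2 := by
      ring
    linarith
  linarith

end Vale.LT.H29
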