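import Mathlib

/-!
P371, Task B helpers: divided differences of polynomials and `C¹` Weierstrass approximation.
-/

namespace Vale.LT.H29

open Polynomial

/-- `dd n x y = ∑_{a<n} x^a y^(n-1-a)`, the divided difference of `x^n`. -/
def dd : ℕ → ℝ → ℝ → ℝ
  | 0, _, _ => 0
  | n + 1, x, y => x ^ n + y * dd n x y

theorem dd_mul (n : ℕ) (x y : ℝ) : dd n x y * (x - y) = x ^ n - y ^ n := by
  induction n with
  | zero => simp [dd]
  | succ n ih =>
    have : dd (n + 1) x y * (x - y) = x ^ n * (x - y) + y * (dd n x y * (x - y)) := by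
      simp only [dd]; ring
    rw [this, ih]; ring

theorem dd_self (n : ℕ) (x : ℝ) : dd n x x = n * x ^ (n - 1) := by
  induction n with
  | zero => simp [dd]
  | succ n ih =>
    simp only [dd, ih]
    rcases n with _ | n
    · simp
    · simp only [Nat.add_sub_cancel]; push_cast; ring

theorem dd_comm (n : ℕ) (x y : ℝ) : dd n x y = dd n y x := by
  rcases eq_or_ne x y with h | h
  · rw [h]
  · have hxy : x - y ≠ 0 := sub_ne_zero.mpr h
    have h1 := dd_mul n x y
    have h2 := dd_mul n y x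
    apply mul_right_cancel₀ hxy
    rw [h1]
    have : dd n y x * (x - y) = -(dd n y x * (y - x)) := by ring
    rw [this, h2]; ring

/-- The divided difference of a polynomial. -/
noncomputable def ddp (F : ℝ[X]) (x y : ℝ) : ℝ := ∑ n ∈ F.support, F.coeff n * dd n x y

theorem ddp_mul (F : ℝ[X]) (x y : ℝ) : ddp F x y * (x - y) = F.eval x - F.eval y := by
  rw [ddp, Finset.sum_mul, eval_eq_sum, eval_eq_sum, Polynomial.sum, Polynomial.sum,
    ← Finset.sum_sub_distrib]
  refine Finset.sum_congr rfl fun n _ => ?_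
  rw [mul_assoc, dd_mul]; ring

theorem ddp_self (F : ℝ[X]) (x : ℝ) : ddp F x x = F.derivative.eval x := by
  rw [ddp, derivative_eval, Polynomial.sum]
  refine Finset.sum_congr rfl fun n _ => ?_
  rw [dd_self]; ring

/-- Comparison of divided differences. -/
theorem abs_ddp_sub_le (F : ℝ[X]) (h h' : ℝ → ℝ) (a b η : ℝ)
    (hd : ∀ x ∈ Set.Icc a b, HasDerivAt h (h' x) x)
    (hF : ∀ x ∈ Set.Icc a b, |F.derivative.eval x - h' x| ≤ η) (q : ℝ → ℝ → ℝ)
    (hq : ∀ x ∈ Set.Icc a b, ∀ y ∈ Set.Icc a b, q x y * (x - y) = h x - h y)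
    (hq' : ∀ x ∈ Set.Icc a b, q x x = h' x) (x y : ℝ) (hx : x ∈ Set.Icc a b)
    (hy : y ∈ Set.Icc a b) : |ddp F x y - q x y| ≤ η := by
  rcases eq_or_ne x y with e | e
  · subst e
    rw [ddp_self, hq' x hx]; exact hF x hx
  · have hxy : x - y ≠ 0 := sub_ne_zero.mpr e
    have key : ‖(F.eval x - h x) - (F.eval y - h y)‖ ≤ η * ‖x - y‖ := by
      refine Convex.norm_image_sub_le_of_norm_hasDerivWithin_le (s := Set.Icc a b)
        (f := fun z => F.eval z - h z) (f' := fun z => F.derivative.eval z - h' z)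
        (fun z hz => ?_) (fun z hz => ?_) (convex_Icc a b) hy hx
      · exact ((F.hasDerivAt z).sub (hd z hz)).hasDerivWithinAt
      · rw [Real.norm_eq_abs]; exact hF z hz
    have e1 : (ddp F x y - q x y) * (x - y) = (F.eval x - h x) - (F.eval y - h y) := by
      rw [sub_mul, ddp_mul, hq x hx y hy]; ring
    rw [Real.norm_eq_abs, Real.norm_eq_abs, ← e1, abs_mul] at key
    exact le_of_mul_le_mul_right key (abs_pos.mpr hxy)

theorem exists_antideriv (p : ℝ[X]) : ∃ Q : ℝ[X], Q.derivative = p := by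
  induction p using Polynomial.induction_on' with
  | add p q hp hq =>
    obtain ⟨P, hP⟩ := hp
    obtain ⟨Q, hQ⟩ := hq
    exact ⟨P + Q, by rw [derivative_add, hP, hQ]⟩
  | monomial n a =>
    refine ⟨monomial (n + 1) (a / (n + 1)), ?_⟩
    rw [derivative_monomial]
    simp only [Nat.add_sub_cancel]
    congr 1
    have : ((n : ℝ) + 1) ≠ 0 := by positivity
    push_cast
    field_simp

/-- antiderivative with prescribed value at a point. -/
theorem exists_antideriv_at (p : ℝ[X]) (a v : ℝ) :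
    ∃ Q : ℝ[X], Q.derivative = p ∧ Q.eval a = v := by
  obtain ⟨Q, hQ⟩ := exists_antideriv p
  refine ⟨Q + C (v - Q.eval a), ?_, ?_⟩
  · rw [derivative_add, derivative_C, add_zero, hQ]
  · simp

/-- `C¹` Weierstrass approximation. -/
theorem exists_poly_C1 (f f' : ℝ → ℝ) (a b η : ℝ) (hab : a ≤ b) (hη : 0 < η)
    (hd : ∀ x ∈ Set.Icc a b, HasDerivAt f (f' x) x) (hc : ContinuousOn f' (Set.Icc a b)) :
    ∃ F : ℝ[X], (∀ x ∈ Set.Icc a b, |F.eval x - f x| ≤ η) ∧
      (∀ x ∈ Set.Icc a b, |F.derivative.eval x - f' x| ≤ η) := by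
  have hba : 0 ≤ b - a := by linarith
  set η' := η / (1 + (b - a)) with hη'
  have hη'p : 0 < η' := by positivity
  have hle : η' ≤ η := by
    rw [hη', div_le_iff₀ (by positivity)]; nlinarith
  obtain ⟨p, hp⟩ := exists_polynomial_near_of_continuousOn a b f' hc η' hη'p
  obtain ⟨Q, hQ, hQa⟩ := exists_antideriv_at p a (f a)
  refine ⟨Q, fun x hx => ?_, fun x hx => ?_⟩
  · have key : ‖(Q.eval x - f x) - (Q.eval a - f a)‖ ≤ η' * ‖x - a‖ := by
      refine Convex.norm_image_sub_le_of_norm_hasDerivWithin_le (s := Set.Icc a b)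
        (f := fun z => Q.eval z - f z) (f' := fun z => Q.derivative.eval z - f' z)
        (fun z hz => ?_) (fun z hz => ?_) (convex_Icc a b) ⟨le_refl a, hab⟩ hx
      · exact ((Q.hasDerivAt z).sub (hd z hz)).hasDerivWithinAt
      · rw [Real.norm_eq_abs, hQ]; exact (hp z hz).le
    rw [hQa, sub_self, sub_zero, Real.norm_eq_abs, Real.norm_eq_abs] at key
    refine key.trans ?_
    have h1 : |x - a| ≤ 1 + (b - a) := by
      rw [abs_of_nonneg (by linarith [hx.1])]; linarith [hx.2]
    calc η' * |x - a| ≤ η' * (1 + (b - a)) := by gcongr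
      _ = η := by rw [hη']; field_simp
  · rw [hQ]; exact (hp x hx).le.trans hle

end Vale.LT.H29
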