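import Vale.Agent.H29.LT.Deriv3

/-!
P371, Task B helpers: completing the square.
-/

open Matrix
open scoped ComplexOrder

namespace Vale.LT.H29

open Polynomial

variable {N m : ℕ}

theorem sq_trace_nonneg (A : Matrix (Fin N) (Fin m) ℂ) : 0 ≤ (A * Aᴴ).trace.re := by
  simp only [Matrix.trace, Matrix.diag_apply, Matrix.mul_apply, Matrix.conjTranspose_apply,
    Complex.re_sum]
  refine Finset.sum_nonneg fun i _ => Finset.sum_nonneg fun j _ => ?_
  rw [Complex.star_def, Complex.mul_conj, Complex.ofReal_re]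
  exact Complex.normSq_nonneg _

theorem trace_conjT_re (A : Matrix (Fin N) (Fin N) ℂ) : (Aᴴ).trace.re = A.trace.re := by
  rw [Matrix.trace_conjTranspose]
  simp

/-- completing the square -/
theorem square_ineq (X : Matrix (Fin N) (Fin N) ℂ) (hX : Xᴴ = X) (U V : Matrix (Fin N) (Fin m) ℂ) :
    ((V * Uᴴ + U * Vᴴ) * X).trace.re ≤ (V * Vᴴ).trace.re + (X * (U * Uᴴ) * X).trace.re := by
  have h := sq_trace_nonneg (V - X * U)
  have e : (V - X * U) * (V - X * U)ᴴ = V * Vᴴ - V * Uᴴ * X - X * U * Vᴴ + X * (U * Uᴴ) * X := by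
    rw [Matrix.conjTranspose_sub, Matrix.conjTranspose_mul, hX]
    rw [Matrix.sub_mul, Matrix.mul_sub, Matrix.mul_sub]
    simp only [Matrix.mul_assoc]
    abel
  rw [e, Matrix.trace_add, Matrix.trace_sub, Matrix.trace_sub] at h
  simp only [Complex.add_re, Complex.sub_re] at h
  have e2 : (X * U * Vᴴ).trace = (U * Vᴴ * X).trace := by
    rw [Matrix.mul_assoc, Matrix.trace_mul_comm]
  rw [e2] at h
  rw [Matrix.add_mul, Matrix.trace_add, Complex.add_re]
  linarith

/-- the Hermitian matrix `X` -/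
noncomputable def XX (F β : ℝ[X]) (lam : Fin N → ℝ) (P : Matrix (Fin N) (Fin N) ℂ) :
    Matrix (Fin N) (Fin N) ℂ :=
  (Matrix.of fun i k => ((F.eval (lam i + lam k) : ℝ) : ℂ) * P i k)
    + Matrix.diagonal fun i => ((β.eval (lam i) : ℝ) : ℂ)

theorem XX_herm (F β : ℝ[X]) (lam : Fin N → ℝ) (P : Matrix (Fin N) (Fin N) ℂ) (hP : Pᴴ = P) :
    (XX F β lam P)ᴴ = XX F β lam P := by
  have h : ∀ i k, star (P k i) = P i k := fun i k => by
    conv_rhs => rw [← hP]
    rfl
  unfold XX
  rw [Matrix.conjTranspose_add, Matrix.diagonal_conjTranspose]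
  congr 1
  · ext i k
    rw [Matrix.conjTranspose_apply, Matrix.of_apply, Matrix.of_apply, star_mul', h,
      add_comm (lam k)]
    simp
  · congr 1
    funext i
    simp

theorem trace_BX (F β : ℝ[X]) (lam : Fin N → ℝ) (P B : Matrix (Fin N) (Fin N) ℂ) :
    (B * XX F β lam P).trace.re = (∑ i, ∑ k, F.eval (lam k + lam i) * (B i k * P k i).re)
      + ∑ i, β.eval (lam i) * (B i i).re := by
  unfold XX
  rw [Matrix.mul_add, Matrix.trace_add, Complex.add_re]
  congr 1
  · simp only [Matrix.trace, Matrix.diag_apply, Matrix.mul_apply, Matrix.of_apply, Complex.re_sum]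
    refine Finset.sum_congr rfl fun i _ => Finset.sum_congr rfl fun k _ => ?_
    rw [← re_ofReal_mul]; congr 1; ring
  · simp only [Matrix.trace, Matrix.diag_apply, Matrix.mul_diagonal, Complex.re_sum]
    refine Finset.sum_congr rfl fun i _ => ?_
    rw [re_mul_ofReal, mul_comm]

theorem trace_XPX (F β : ℝ[X]) (lam : Fin N → ℝ) (P : Matrix (Fin N) (Fin N) ℂ) :
    (XX F β lam P * P * XX F β lam P).trace.re
      = (∑ i, ∑ k, ∑ l, (P i k * P k l * P l i).re
          * (F.eval (lam i + lam l) * F.eval (lam k + lam l)))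
        + (∑ i, ∑ k, (P i k * P k i).re
            * (F.eval (lam i + lam k) * (β.eval (lam i) + β.eval (lam k))))
        + ∑ i, (P i i).re * (β.eval (lam i)) ^ 2 := by
  set FP : Matrix (Fin N) (Fin N) ℂ :=
    Matrix.of fun i k => ((F.eval (lam i + lam k) : ℝ) : ℂ) * P i k with hFP
  set D : Matrix (Fin N) (Fin N) ℂ := Matrix.diagonal fun i => ((β.eval (lam i) : ℝ) : ℂ) with hD
  have e0 : XX F β lam P * P * XX F β lam P
      = FP * P * FP + (FP * P * D + D * P * FP) + D * P * D := by
    unfold XX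
    rw [← hFP, ← hD, Matrix.add_mul, Matrix.add_mul, Matrix.mul_add, Matrix.mul_add]
    abel
  rw [e0, Matrix.trace_add, Matrix.trace_add, Matrix.trace_add, Complex.add_re, Complex.add_re,
    Complex.add_re]
  have e1 : (FP * P * FP).trace.re = ∑ i, ∑ k, ∑ l, (P i k * P k l * P l i).re
          * (F.eval (lam i + lam l) * F.eval (lam k + lam l)) := by
    have a1 : (FP * P * FP).trace = ∑ i, ∑ k, ∑ l, FP i k * P k l * FP l i := by
      simp only [Matrix.trace, Matrix.diag_apply, Matrix.mul_apply, Finset.sum_mul]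
      refine Finset.sum_congr rfl fun i _ => ?_
      exact Finset.sum_comm
    rw [a1, sum3_cyc]
    simp only [Complex.re_sum]
    refine Finset.sum_congr rfl fun i _ => Finset.sum_congr rfl fun k _ =>
      Finset.sum_congr rfl fun l _ => ?_
    rw [← re_mul_ofReal]
    congr 1
    simp only [hFP, Matrix.of_apply]
    rw [add_comm (lam l) (lam i)]
    push_cast
    ring
  have e2 : (FP * P * D).trace.re = ∑ i, ∑ k, (P i k * P k i).re
            * (F.eval (lam i + lam k) * β.eval (lam i)) := by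
    simp only [Matrix.trace, Matrix.diag_apply, hD, Matrix.mul_diagonal]
    simp only [Matrix.mul_apply, Finset.sum_mul, Complex.re_sum]
    refine Finset.sum_congr rfl fun i _ => Finset.sum_congr rfl fun k _ => ?_
    rw [← re_mul_ofReal]
    congr 1
    simp only [hFP, Matrix.of_apply]
    push_cast
    ring
  have e3 : (D * P * FP).trace.re = ∑ i, ∑ k, (P i k * P k i).re
            * (F.eval (lam i + lam k) * β.eval (lam i)) := by
    simp only [Matrix.trace, Matrix.diag_apply, Matrix.mul_assoc, hD, Matrix.diagonal_mul]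
    simp only [Matrix.mul_apply, Finset.mul_sum, Complex.re_sum]
    refine Finset.sum_congr rfl fun i _ => Finset.sum_congr rfl fun k _ => ?_
    rw [← re_mul_ofReal]
    congr 1
    simp only [hFP, Matrix.of_apply]
    rw [add_comm (lam k) (lam i)]
    push_cast
    ring
  have e4 : (D * P * D).trace.re = ∑ i, (P i i).re * (β.eval (lam i)) ^ 2 := by
    simp only [Matrix.trace, Matrix.diag_apply, hD, Matrix.mul_diagonal, Matrix.diagonal_mul,
      Complex.re_sum]
    refine Finset.sum_congr rfl fun i _ => ?_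
    rw [← re_mul_ofReal]
    congr 1
    push_cast
    ring
  have e5 : ∑ i, ∑ k, (P i k * P k i).re * (F.eval (lam i + lam k) * β.eval (lam i))
      = ∑ i, ∑ k, (P i k * P k i).re * (F.eval (lam i + lam k) * β.eval (lam k)) := by
    rw [Finset.sum_comm]
    refine Finset.sum_congr rfl fun i _ => Finset.sum_congr rfl fun k _ => ?_
    rw [mul_comm (P k i), add_comm (lam k)]
  rw [e1, e2, e3, e4]
  congr 2
  nth_rw 2 [e5]
  simp only [mul_add, Finset.sum_add_distrib]

theorem trace_cube (P : Matrix (Fin N) (Fin N) ℂ) :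
    (P ^ 3).trace.re = ∑ i, ∑ k, ∑ l, (P i k * P k l * P l i).re := by
  have a1 : (P ^ 3).trace = ∑ i, ∑ k, ∑ l, P i k * P k l * P l i := by
    rw [pow_succ, pow_two]
    simp only [Matrix.trace, Matrix.diag_apply, Matrix.mul_apply, Finset.sum_mul]
    refine Finset.sum_congr rfl fun i _ => ?_
    exact Finset.sum_comm
  rw [a1]
  simp only [Complex.re_sum]

theorem trace_sq (P : Matrix (Fin N) (Fin N) ℂ) :
    (P ^ 2).trace.re = ∑ i, ∑ k, (P i k * P k i).re := by
  rw [pow_two]
  simp only [Matrix.trace, Matrix.diag_apply, Matrix.mul_apply, Complex.re_sum]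

theorem key_ineq (F β c : ℝ[X]) (hc : c.derivative = -β ^ 2) (b : ℝ) (lam : Fin N → ℝ)
    (U V : Matrix (Fin N) (Fin m) ℂ) (P : Matrix (Fin N) (Fin N) ℂ) (hP : P = U * Uᴴ) :
    DPhi F β c lam P (V * Uᴴ + U * Vᴴ) + (P ^ 3).trace.re + b * (P ^ 2).trace.re
      ≤ (V * Vᴴ).trace.re
        + (∑ i, ∑ k, ∑ l, (P i k * P k l * P l i).re
          * (F.eval (lam i + lam l) * F.eval (lam k + lam l) + 1
              + ddp F (lam i + lam l) (lam k + lam l)))
        + ∑ i, ∑ k, (P i k * P k i).re
            * (F.eval (lam i + lam k) * (β.eval (lam i) + β.eval (lam k))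
              + ddp β (lam i) (lam k) + b) := by
  have hPh : Pᴴ = P := by rw [hP, Matrix.conjTranspose_mul, Matrix.conjTranspose_conjTranspose]
  have h := square_ineq (XX F β lam P) (XX_herm F β lam P hPh) U V
  rw [trace_BX, ← hP, trace_XPX] at h
  rw [trace_cube, trace_sq]
  unfold DPhi
  have e1 : ∑ i, (P i i).re * c.derivative.eval (lam i)
      = -∑ i, (P i i).re * (β.eval (lam i)) ^ 2 := by
    rw [← Finset.sum_neg_distrib, hc]
    refine Finset.sum_congr rfl fun i _ => ?_
    simp only [eval_neg, eval_pow]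
    ring
  rw [e1]
  have e2 : (∑ i, ∑ k, ∑ l, (P i k * P k l * P l i).re
          * (F.eval (lam i + lam l) * F.eval (lam k + lam l) + 1
              + ddp F (lam i + lam l) (lam k + lam l)))
      = (∑ i, ∑ k, ∑ l, (P i k * P k l * P l i).re
          * (F.eval (lam i + lam l) * F.eval (lam k + lam l)))
        + (∑ i, ∑ k, ∑ l, (P i k * P k l * P l i).re)
        + ∑ i, ∑ k, ∑ l, (P i k * P k l * P l i).re * ddp F (lam i + lam l) (lam k + lam l) := by
    simp only [← Finset.sum_add_distrib]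
    refine Finset.sum_congr rfl fun i _ => Finset.sum_congr rfl fun k _ =>
      Finset.sum_congr rfl fun l _ => ?_
    ring
  have e3 : ∑ i, ∑ k, (P i k * P k i).re
            * (F.eval (lam i + lam k) * (β.eval (lam i) + β.eval (lam k))
              + ddp β (lam i) (lam k) + b)
      = (∑ i, ∑ k, (P i k * P k i).re
            * (F.eval (lam i + lam k) * (β.eval (lam i) + β.eval (lam k))))
        + (∑ i, ∑ k, (P i k * P k i).re * ddp β (lam i) (lam k))
        + b * ∑ i, ∑ k, (P i k * P k i).re := by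
    rw [Finset.mul_sum]
    simp only [Finset.mul_sum, ← Finset.sum_add_distrib]
    refine Finset.sum_congr rfl fun i _ => Finset.sum_congr rfl fun k _ => ?_
    ring
  rw [e2, e3]
  linarith

/-- entries of a Gram matrix are bounded by its trace -/
theorem norm_entry_le (U : Matrix (Fin N) (Fin m) ℂ) (i k : Fin N) :
    ‖(U * Uᴴ) i k‖ ≤ (U * Uᴴ).trace.re := by
  have tr : (U * Uᴴ).trace.re = ∑ i, ∑ j, ‖U i j‖ ^ 2 := by
    simp only [Matrix.trace, Matrix.diag_apply, Matrix.mul_apply, Matrix.conjTranspose_apply,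
      Complex.re_sum]
    refine Finset.sum_congr rfl fun i _ => Finset.sum_congr rfl fun j _ => ?_
    rw [Complex.star_def, Complex.mul_conj, Complex.ofReal_re, Complex.normSq_eq_norm_sq]
  have h1 : ∀ i, ∑ j, ‖U i j‖ ^ 2 ≤ (U * Uᴴ).trace.re := by
    intro i
    rw [tr]
    exact Finset.single_le_sum (f := fun i => ∑ j, ‖U i j‖ ^ 2)
      (fun i _ => Finset.sum_nonneg fun j _ => by positivity) (Finset.mem_univ i)
  have h2 : ‖(U * Uᴴ) i k‖ ≤ ∑ j, (‖U i j‖ ^ 2 + ‖U k j‖ ^ 2) / 2 := by
    rw [Matrix.mul_apply]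
    refine (norm_sum_le _ _).trans (Finset.sum_le_sum fun j _ => ?_)
    rw [Matrix.conjTranspose_apply, norm_mul, norm_star]
    nlinarith [sq_nonneg (‖U i j‖ - ‖U k j‖)]
  refine h2.trans ?_
  rw [← Finset.sum_div, Finset.sum_add_distrib]
  linarith [h1 i, h1 k]

theorem trace_nonneg (U : Matrix (Fin N) (Fin m) ℂ) : 0 ≤ (U * Uᴴ).trace.re := sq_trace_nonneg U

end Vale.LT.H29
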