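import Vale.Agent.H29.LT.Square
import Vale.Agent.H1.LT.Kernel

/-!
P371, Task B helpers: the trigonometric identities and the inequality at a diagonal point.
-/

open Matrix
open scoped ComplexOrder

namespace Vale.LT.H29

open Polynomial

noncomputable def ct (x : ℝ) : ℝ := Real.cos x / Real.sin x
noncomputable def ct' (x : ℝ) : ℝ := -1 / (Real.sin x) ^ 2
noncomputable def qc (x y : ℝ) : ℝ := -(Real.sinc (x - y)) / (Real.sin x * Real.sin y)
noncomputable def bt (b x : ℝ) : ℝ := -(b / 2) * (Real.sin x / Real.cos x)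
noncomputable def bt' (b x : ℝ) : ℝ := -(b / 2) * (1 / (Real.cos x) ^ 2)
noncomputable def qb (b x y : ℝ) : ℝ :=
  -(b / 2) * (Real.sinc (x - y) / (Real.cos x * Real.cos y))

theorem sinc_mul (x : ℝ) : Real.sinc x * x = Real.sin x := by
  rcases eq_or_ne x 0 with h | h
  · simp [h]
  · rw [Real.sinc_of_ne_zero h]; field_simp

theorem hasDerivAt_ct {x : ℝ} (h : Real.sin x ≠ 0) : HasDerivAt ct (ct' x) x := by
  have := (Real.hasDerivAt_cos x).div (Real.hasDerivAt_sin x) h
  refine HasDerivAt.congr_deriv this ?_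
  unfold ct'
  congr 1
  have h1 := Real.sin_sq_add_cos_sq x
  nlinarith

theorem hasDerivAt_bt (b : ℝ) {x : ℝ} (h : Real.cos x ≠ 0) : HasDerivAt (bt b) (bt' b x) x := by
  have := ((Real.hasDerivAt_sin x).div (Real.hasDerivAt_cos x) h).const_mul (-(b / 2))
  refine HasDerivAt.congr_deriv this ?_
  unfold bt'
  congr 2
  have h1 := Real.sin_sq_add_cos_sq x
  nlinarith

theorem qc_mul {x y : ℝ} (hx : Real.sin x ≠ 0) (hy : Real.sin y ≠ 0) :
    qc x y * (x - y) = ct x - ct y := by
  unfold qc ct
  have h := sinc_mul (x - y)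
  rw [Real.sin_sub] at h
  field_simp
  linarith

theorem qc_self {x : ℝ} : qc x x = ct' x := by
  unfold qc ct'
  rw [sub_self, Real.sinc_zero, pow_two]

theorem qb_mul (b : ℝ) {x y : ℝ} (hx : Real.cos x ≠ 0) (hy : Real.cos y ≠ 0) :
    qb b x y * (x - y) = bt b x - bt b y := by
  unfold qb bt
  have h := sinc_mul (x - y)
  rw [Real.sin_sub] at h
  have h2 : Real.sinc (x - y) / (Real.cos x * Real.cos y) * (x - y)
      = Real.sin x / Real.cos x - Real.sin y / Real.cos y := by
    field_simp
    linarith
  calc -(b / 2) * (Real.sinc (x - y) / (Real.cos x * Real.cos y)) * (x - y)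
      = -(b / 2) * (Real.sinc (x - y) / (Real.cos x * Real.cos y) * (x - y)) := by ring
    _ = _ := by rw [h2]; ring

theorem qb_self (b : ℝ) {x : ℝ} : qb b x x = bt' b x := by
  unfold qb bt'
  rw [sub_self, Real.sinc_zero, pow_two]

theorem bracket3 {x y : ℝ} (hx : Real.sin x ≠ 0) (hy : Real.sin y ≠ 0) :
    ct x * ct y + 1 + qc x y
      = -((Real.sinc (x - y) - Real.cos (x - y)) / (Real.sin x * Real.sin y)) := by
  unfold qc ct
  rw [Real.cos_sub]
  field_simp
  ring

theorem cos_le_sinc {z : ℝ} (hz : |z| ≤ Real.pi) : Real.cos z ≤ Real.sinc z := by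
  -- `sinc z = ∫_0^1 cos (s z)`; use the derivative argument on `|z|`
  have key : ∀ z, 0 ≤ z → z ≤ Real.pi → Real.cos z ≤ Real.sinc z := by
    intro z h0 h1
    rcases h0.eq_or_lt with h | h
    · rw [← h]; simp
    · rw [Real.sinc_of_ne_zero h.ne', le_div_iff₀ h]
      -- g z = sin z - z cos z is monotone on [0, π]
      have hmono : MonotoneOn (fun z => Real.sin z - Real.cos z * z) (Set.Icc 0 Real.pi) := by
        have hd : ∀ x, HasDerivAt (fun z => Real.sin z - Real.cos z * z) (Real.sin x * x) x := by
          intro x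
          have := (Real.hasDerivAt_sin x).sub ((Real.hasDerivAt_cos x).mul (hasDerivAt_id x))
          refine HasDerivAt.congr_deriv this ?_
          simp
        refine monotoneOn_of_deriv_nonneg (convex_Icc _ _) ?_ ?_ ?_
        · exact fun x _ => (hd x).continuousAt.continuousWithinAt
        · exact fun x _ => (hd x).differentiableAt.differentiableWithinAt
        · intro x hx
          rw [interior_Icc] at hx
          rw [(hd x).deriv]
          exact mul_nonneg (Real.sin_nonneg_of_nonneg_of_le_pi hx.1.le hx.2.le) hx.1.le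
      have := hmono ⟨le_refl 0, Real.pi_pos.le⟩ ⟨h0, h1⟩ h0
      simp at this
      linarith
  rcases le_total 0 z with h | h
  · exact key z h (by rwa [abs_of_nonneg h] at hz)
  · have := key (-z) (by linarith) (by rwa [abs_of_nonpos h] at hz)
    rwa [Real.cos_neg, Real.sinc_neg] at this

theorem bracket2 {b x y : ℝ} (hx : Real.cos x ≠ 0) (hy : Real.cos y ≠ 0)
    (hs : Real.sin (x + y) ≠ 0) :
    ct (x + y) * (bt b x + bt b y) + qb b x y + b
      = -((b / 2) * ((Real.sinc (x - y) - Real.cos (x - y)) / (Real.cos x * Real.cos y))) := by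
  have h1 : ct (x + y) * (bt b x + bt b y)
      = -(b / 2) * (Real.cos (x + y) / (Real.cos x * Real.cos y)) := by
    unfold ct bt
    have : Real.sin x / Real.cos x + Real.sin y / Real.cos y
        = Real.sin (x + y) / (Real.cos x * Real.cos y) := by
      rw [Real.sin_add]; field_simp
    calc Real.cos (x + y) / Real.sin (x + y) *
          (-(b / 2) * (Real.sin x / Real.cos x) + -(b / 2) * (Real.sin y / Real.cos y))
        = -(b / 2) * (Real.cos (x + y) / Real.sin (x + y) *
          (Real.sin x / Real.cos x + Real.sin y / Real.cos y)) := by ring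
      _ = _ := by rw [this]; congr 1; field_simp
  have h2 : b = (b / 2) * ((Real.cos (x - y) + Real.cos (x + y)) / (Real.cos x * Real.cos y)) := by
    rw [Real.cos_sub, Real.cos_add]
    field_simp
    ring
  rw [h1]
  nth_rw 3 [h2]
  unfold qb
  ring

end Vale.LT.H29
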